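import Vale.Agent.H59.CHDefs

namespace Vale.Agent.H59

open Set

/-- `cs_b x = cosh (b x)`, the derivative of `sn_b`. -/
noncomputable def cs (b x : ℝ) : ℝ := Real.cosh (b * x)

/-- inverse of `sn_b`. -/
noncomputable def arsn (b y : ℝ) : ℝ := if b = 0 then y else Real.arsinh (b * y) / b

theorem sn_zero (b : ℝ) : sn b 0 = 0 := by
  unfold sn; split_ifs <;> simp

theorem arsn_zero (b : ℝ) : arsn b 0 = 0 := by
  unfold arsn; split_ifs <;> simp

theorem cs_zero (b : ℝ) : cs b 0 = 1 := by
  unfold cs; simp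

theorem cs_pos (b x : ℝ) : 0 < cs b x := Real.cosh_pos _

theorem hasDerivAt_sn (b x : ℝ) : HasDerivAt (sn b) (cs b x) x := by
  by_cases hb : b = 0
  · have e : sn b = fun r : ℝ => r := by
      funext r; simp [sn, hb]
    rw [e]
    have : cs b x = 1 := by simp [cs, hb]
    rw [this]
    exact hasDerivAt_id' x
  · have e : sn b = fun r : ℝ => Real.sinh (b * r) / b := by
      funext r; simp [sn, hb]
    rw [e]
    have h1 : HasDerivAt (fun r : ℝ => b * r) b x := by
      simpa using (hasDerivAt_id' x).const_mul b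
    have h2 : HasDerivAt (fun r : ℝ => Real.sinh (b * r)) (Real.cosh (b * x) * b) x :=
      (Real.hasDerivAt_sinh (b * x)).comp x h1
    have h3 := h2.div_const b
    refine h3.congr_deriv ?_
    unfold cs
    field_simp

theorem hasDerivAt_cs (b x : ℝ) : HasDerivAt (cs b) (b ^ 2 * sn b x) x := by
  have h1 : HasDerivAt (fun r : ℝ => b * r) b x := by
    simpa using (hasDerivAt_id' x).const_mul b
  have h2 : HasDerivAt (fun r : ℝ => Real.cosh (b * r)) (Real.sinh (b * x) * b) x :=
    (Real.hasDerivAt_cosh (b * x)).comp x h1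
  have e : cs b = fun r : ℝ => Real.cosh (b * r) := rfl
  rw [e]
  refine h2.congr_deriv ?_
  by_cases hb : b = 0
  · simp [sn, hb]
  · simp only [sn, hb, if_false]
    field_simp

theorem cs_sq (b x : ℝ) : cs b x ^ 2 = 1 + b ^ 2 * sn b x ^ 2 := by
  unfold sn cs
  by_cases hb : b = 0
  · simp [hb]
  · simp only [hb, if_false]
    have := Real.cosh_sq (b * x)
    field_simp
    linarith

theorem sn_arsn (b y : ℝ) : sn b (arsn b y) = y := by
  unfold sn arsn
  by_cases hb : b = 0
  · simp [hb]
  · simp only [hb, if_false]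
    rw [mul_div_cancel₀ _ hb, Real.sinh_arsinh]
    field_simp

theorem arsn_sn (b x : ℝ) : arsn b (sn b x) = x := by
  unfold sn arsn
  by_cases hb : b = 0
  · simp [hb]
  · simp only [hb, if_false]
    rw [mul_div_cancel₀ _ hb, Real.arsinh_sinh]
    field_simp

theorem hasDerivAt_arsn (b y : ℝ) :
    HasDerivAt (arsn b) (Real.sqrt (1 + b ^ 2 * y ^ 2))⁻¹ y := by
  by_cases hb : b = 0
  · have e : arsn b = fun r : ℝ => r := by
      funext r; simp [arsn, hb]
    rw [e]
    have : (Real.sqrt (1 + b ^ 2 * y ^ 2))⁻¹ = 1 := by simp [hb]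
    rw [this]
    exact hasDerivAt_id' y
  · have e : arsn b = fun r : ℝ => Real.arsinh (b * r) / b := by
      funext r; simp [arsn, hb]
    rw [e]
    have h1 : HasDerivAt (fun r : ℝ => b * r) b y := by
      simpa using (hasDerivAt_id' y).const_mul b
    have h2 : HasDerivAt (fun r : ℝ => Real.arsinh (b * r))
        ((Real.sqrt (1 + (b * y) ^ 2))⁻¹ * b) y :=
      (Real.hasDerivAt_arsinh (b * y)).comp y h1
    have h3 := h2.div_const b
    refine h3.congr_deriv ?_
    have : (b * y) ^ 2 = b ^ 2 * y ^ 2 := by ring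
    rw [this]
    field_simp

theorem sn_strictMono (b : ℝ) : StrictMono (sn b) := by
  apply strictMono_of_deriv_pos
  intro x
  rw [(hasDerivAt_sn b x).deriv]
  exact cs_pos b x

theorem sn_pos {b x : ℝ} (hx : 0 < x) : 0 < sn b x := by
  have := sn_strictMono b hx
  rwa [sn_zero] at this

theorem sn_nonneg {b x : ℝ} (hx : 0 ≤ x) : 0 ≤ sn b x := by
  have := (sn_strictMono b).monotone hx
  rwa [sn_zero] at this

theorem continuous_sn (b : ℝ) : Continuous (sn b) :=
  continuous_iff_continuousAt.2 fun x => (hasDerivAt_sn b x).continuousAt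

end Vale.Agent.H59
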