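import Mathlib

/-!
Definitions for the rotationally symmetric case of the generalized
Cartan-Hadamard isoperimetric inequality (problem P219).
-/

namespace Vale.Agent.H59

/-- The function `sn_b` of the problem: `sn_b r = r` for `b = 0` and `sinh (b r) / b` otherwise. -/
noncomputable def sn (b r : ℝ) : ℝ := if b = 0 then r else Real.sinh (b * r) / b

/-- `ω_n`: the Lebesgue volume of the unit ball of Euclidean `n`-space. -/
noncomputable def omega (n : ℕ) : ℝ :=
  (MeasureTheory.volume (Metric.ball (0 : EuclideanSpace ℝ (Fin n)) 1)).toReal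

/-- Boundary area `n ω_n sn_b(ρ)^(n-1)` of the geodesic ball of radius `ρ` in the
space form of curvature `-b^2`. -/
noncomputable def modelArea (n : ℕ) (b ρ : ℝ) : ℝ := n * omega n * sn b ρ ^ (n - 1)

/-- Volume `n ω_n ∫_0^ρ sn_b(t)^(n-1) dt` of the geodesic ball of radius `ρ` in the
space form of curvature `-b^2`. -/
noncomputable def modelVol (n : ℕ) (b ρ : ℝ) : ℝ :=
  n * omega n * ∫ t in (0 : ℝ)..ρ, sn b t ^ (n - 1)

/-- Boundary area `n ω_n f(r)^(n-1)` of the geodesic ball of radius `r` about the pole of the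
rotationally symmetric metric `dr^2 + f(r)^2 g_{S^(n-1)}`. -/
noncomputable def warpArea (n : ℕ) (f : ℝ → ℝ) (r : ℝ) : ℝ := n * omega n * f r ^ (n - 1)

/-- Volume `n ω_n ∫_0^r f(t)^(n-1) dt` of the geodesic ball of radius `r` about the pole of the
rotationally symmetric metric `dr^2 + f(r)^2 g_{S^(n-1)}`. -/
noncomputable def warpVol (n : ℕ) (f : ℝ → ℝ) (r : ℝ) : ℝ :=
  n * omega n * ∫ t in (0 : ℝ)..r, f t ^ (n - 1)

end Vale.Agent.H59
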