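import Vale.Agent.H59.CHIso

namespace Vale.Agent.H59

open Set

theorem omega_pos (n : ℕ) : 0 < omega n := by
  unfold omega
  apply ENNReal.toReal_pos
  · exact (Metric.measure_ball_pos MeasureTheory.volume _ one_pos).ne'
  · exact (MeasureTheory.measure_ball_lt_top).ne

theorem modelVol_eq (n : ℕ) (b ρ : ℝ) :
    modelVol n b ρ = n * omega n * modelInt (n - 1) b ρ := rfl

theorem rot_sym_ball (n : ℕ) (hn : 2 ≤ n) (b : ℝ) (r : ℝ) (hr : 0 < r)
    (f f' f'' : ℝ → ℝ)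
    (hf : ∀ x ∈ Set.Icc 0 r, HasDerivAt f (f' x) x)
    (hf' : ∀ x ∈ Set.Icc 0 r, HasDerivAt f' (f'' x) x)
    (h0 : f 0 = 0) (h1 : f' 0 = 1)
    (hcurv : ∀ x ∈ Set.Icc 0 r, b ^ 2 * f x ≤ f'' x) :
    ∃ ρ : ℝ, 0 ≤ ρ ∧ (∀ ρ' : ℝ, 0 ≤ ρ' → (modelVol n b ρ' = warpVol n f r ↔ ρ' = ρ)) ∧
      modelArea n b ρ ≤ warpArea n f r ∧
      (modelArea n b ρ = warpArea n f r ↔ ∀ x ∈ Set.Icc 0 r, f x = sn b x) := by
  have hc : 0 < (n : ℝ) * omega n :=
    mul_pos (Nat.cast_pos.2 (by omega)) (omega_pos n)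
  have hm : n - 1 ≠ 0 := by omega
  obtain ⟨ρ, hρ0, hρeq, hle, hrig⟩ := iso_core (n - 1) hr hf hf' h0 h1 hcurv
  have hr' : (0 : ℝ) ≤ r := hr.le
  have hge := f_ge_sn hr' hf hf' h0 h1 hcurv
  have hfr : 0 ≤ f r := le_trans (sn_nonneg hr') (hge r (right_mem_Icc.2 hr'))
  have hvol : ∀ ρ' : ℝ, 0 ≤ ρ' → (modelVol n b ρ' = warpVol n f r ↔ ρ' = ρ) := by
    intro ρ' hρ'
    rw [modelVol_eq]
    unfold warpVol
    rw [mul_right_inj' hc.ne', ← hρeq]
    constructor
    · intro h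
      exact (modelInt_strictMonoOn (n - 1) b).injOn hρ' hρ0 h
    · intro h; rw [h]
  refine ⟨ρ, hρ0, hvol, ?_, ?_⟩
  · unfold modelArea warpArea
    exact mul_le_mul_of_nonneg_left (pow_le_pow_left₀ (sn_nonneg hρ0) hle _) hc.le
  · constructor
    · intro h
      unfold modelArea warpArea at h
      rw [mul_right_inj' hc.ne'] at h
      apply hrig
      exact (pow_left_inj₀ (sn_nonneg hρ0) hfr hm).1 h
    · intro h
      have hvr : modelVol n b r = warpVol n f r := by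
        unfold modelVol warpVol
        congr 1
        apply intervalIntegral.integral_congr
        intro t ht
        rw [uIcc_of_le hr'] at ht
        simp only
        rw [h t ht]
      have hρr : r = ρ := (hvol r hr').1 hvr
      unfold modelArea warpArea
      rw [← hρr, h r (right_mem_Icc.2 hr')]

end Vale.Agent.H59
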