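import Vale.Agent.H59.CHMain

namespace Vale.Agent.H59

open Set

/-- `G(ρ) = ∫_0^ρ sn_b^(n-1)`. -/
noncomputable def modelInt (m : ℕ) (b ρ : ℝ) : ℝ := ∫ t in (0 : ℝ)..ρ, sn b t ^ m

theorem hasDerivAt_modelInt (m : ℕ) (b ρ : ℝ) :
    HasDerivAt (modelInt m b) (sn b ρ ^ m) ρ := by
  have hc : Continuous fun t : ℝ => sn b t ^ m := (continuous_sn b).pow m
  exact (hc.integral_hasStrictDerivAt 0 ρ).hasDerivAt

theorem modelInt_zero (m : ℕ) (b : ℝ) : modelInt m b 0 = 0 := by
  simp [modelInt]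

theorem continuous_modelInt (m : ℕ) (b : ℝ) : Continuous (modelInt m b) :=
  continuous_iff_continuousAt.2 fun x => (hasDerivAt_modelInt m b x).continuousAt

theorem modelInt_strictMonoOn (m : ℕ) (b : ℝ) : StrictMonoOn (modelInt m b) (Ici 0) := by
  apply strictMonoOn_of_deriv_pos (convex_Ici 0) (continuous_modelInt m b).continuousOn
  intro x hx
  rw [interior_Ici] at hx
  rw [(hasDerivAt_modelInt m b x).deriv]
  exact pow_pos (sn_pos hx) m

section iso

variable {b r : ℝ} {f f' f'' : ℝ → ℝ}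

theorem iso_core (m : ℕ) (hr : 0 < r)
    (hf : ∀ x ∈ Icc 0 r, HasDerivAt f (f' x) x)
    (hf' : ∀ x ∈ Icc 0 r, HasDerivAt f' (f'' x) x)
    (h0 : f 0 = 0) (h1 : f' 0 = 1)
    (hcurv : ∀ x ∈ Icc 0 r, b ^ 2 * f x ≤ f'' x) :
    ∃ ρ : ℝ, 0 ≤ ρ ∧ modelInt m b ρ = (∫ t in (0 : ℝ)..r, f t ^ m) ∧ sn b ρ ≤ f r ∧
      (sn b ρ = f r → ∀ x ∈ Icc 0 r, f x = sn b x) := by
  have hr' : (0 : ℝ) ≤ r := hr.le
  have hge := f_ge_sn hr' hf hf' h0 h1 hcurv
  have hge1 := f'_ge_one hr' hf hf' h0 h1 hcurv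
  have hsq := f'_sq_ge hr' hf hf' h0 h1 hcurv
  have hfnn : ∀ x ∈ Icc 0 r, 0 ≤ f x := fun x hx => le_trans (sn_nonneg hx.1) (hge x hx)
  have hfpos : ∀ x ∈ Ioc 0 r, 0 < f x := fun x hx =>
    lt_of_lt_of_le (sn_pos hx.1) (hge x (Ioc_subset_Icc_self hx))
  have hfcont : ContinuousOn f (Icc 0 r) := fun x hx => (hf x hx).continuousAt.continuousWithinAt
  -- the radius of the model sphere with the same area
  set σ : ℝ → ℝ := fun x => arsn b (f x) with hσ
  have hσd : ∀ x ∈ Icc 0 r,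
      HasDerivAt σ ((Real.sqrt (1 + b ^ 2 * f x ^ 2))⁻¹ * f' x) x := by
    intro x hx
    exact (hasDerivAt_arsn b (f x)).comp x (hf x hx)
  have hσ1 : ∀ x ∈ Icc 0 r, 1 ≤ (Real.sqrt (1 + b ^ 2 * f x ^ 2))⁻¹ * f' x := by
    intro x hx
    have hpos : 0 < 1 + b ^ 2 * f x ^ 2 := by positivity
    have hsp : 0 < Real.sqrt (1 + b ^ 2 * f x ^ 2) := Real.sqrt_pos.2 hpos
    have hle : Real.sqrt (1 + b ^ 2 * f x ^ 2) ≤ f' x := by
      rw [Real.sqrt_le_iff]
      exact ⟨le_trans zero_le_one (hge1 x hx), hsq x hx⟩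
    rw [inv_mul_eq_div, le_div_iff₀ hsp]
    linarith
  have hσ0 : σ 0 = 0 := by simp [hσ, h0, arsn_zero]
  have hsnσ : ∀ x, sn b (σ x) = f x := fun x => sn_arsn b (f x)
  -- the primitive of f^m
  set F : ℝ → ℝ := fun x => ∫ t in (0 : ℝ)..x, f t ^ m with hF
  have hfmcont : ContinuousOn (fun t => f t ^ m) (Icc 0 r) := hfcont.pow m
  have hFcont : ContinuousOn F (Icc 0 r) := by
    have h := intervalIntegral.continuousOn_primitive_interval (μ := MeasureTheory.volume)
      (f := fun t => f t ^ m) (a := 0) (b := r)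
      (by rw [uIcc_of_le hr']; exact hfmcont.integrableOn_Icc)
    rwa [uIcc_of_le hr'] at h
  have hFd : ∀ x ∈ Ioo 0 r, HasDerivAt F (f x ^ m) x := by
    intro x hx
    have hcIoo : ContinuousOn (fun t => f t ^ m) (Ioo 0 r) := hfmcont.mono Ioo_subset_Icc_self
    apply intervalIntegral.integral_hasDerivAt_right
    · apply ContinuousOn.intervalIntegrable
      rw [uIcc_of_le hx.1.le]
      exact hfmcont.mono (Icc_subset_Icc le_rfl hx.2.le)
    · exact hcIoo.stronglyMeasurableAtFilter isOpen_Ioo x hx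
    · exact hcIoo.continuousAt (isOpen_Ioo.mem_nhds hx)
  -- the comparison function
  set Φ : ℝ → ℝ := fun x => modelInt m b (σ x) - F x with hΦ
  have hΦd : ∀ x ∈ Ioo 0 r,
      HasDerivAt Φ (f x ^ m * ((Real.sqrt (1 + b ^ 2 * f x ^ 2))⁻¹ * f' x - 1)) x := by
    intro x hx
    have hx' := Ioo_subset_Icc_self hx
    have d1 := (hasDerivAt_modelInt m b (σ x)).comp x (hσd x hx')
    have d2 := d1.sub (hFd x hx)
    refine d2.congr_deriv ?_
    rw [hsnσ x]
    ring
  have hΦcont : ContinuousOn Φ (Icc 0 r) := by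
    have hσcont : ContinuousOn σ (Icc 0 r) :=
      fun x hx => (hσd x hx).continuousAt.continuousWithinAt
    exact ((continuous_modelInt m b).comp_continuousOn hσcont).sub hFcont
  have hΦmono : MonotoneOn Φ (Icc 0 r) := by
    apply monotoneOn_of_deriv_nonneg (convex_Icc 0 r) hΦcont
    · intro x hx; rw [interior_Icc] at hx
      exact (hΦd x hx).differentiableAt.differentiableWithinAt
    · intro x hx; rw [interior_Icc] at hx
      have hx' := Ioo_subset_Icc_self hx
      rw [(hΦd x hx).deriv]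
      exact mul_nonneg (pow_nonneg (hfnn x hx') m) (sub_nonneg.2 (hσ1 x hx'))
  have hΦ0 : Φ 0 = 0 := by
    simp [hΦ, hF, hσ0, modelInt_zero]
  have hΦr : 0 ≤ Φ r := by
    have := hΦmono (left_mem_Icc.2 hr') (right_mem_Icc.2 hr') hr'
    rwa [hΦ0] at this
  have hFr : 0 ≤ F r := by
    apply intervalIntegral.integral_nonneg hr'
    intro u hu
    exact pow_nonneg (hfnn u hu) m
  have hσr : 0 ≤ σ r := by
    have h2 : sn b 0 ≤ sn b (σ r) := by
      rw [sn_zero, hsnσ]; exact hfnn r (right_mem_Icc.2 hr')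
    exact (sn_strictMono b).le_iff_le.1 h2
  -- intermediate value theorem
  have hivt := intermediate_value_Icc hσr (continuous_modelInt m b).continuousOn
  have hmem : F r ∈ Icc (modelInt m b 0) (modelInt m b (σ r)) := by
    rw [modelInt_zero]
    refine ⟨hFr, ?_⟩
    have := hΦr
    simp only [hΦ] at this
    linarith
  obtain ⟨ρ, hρ, hρeq⟩ := hivt hmem
  refine ⟨ρ, hρ.1, hρeq, ?_, ?_⟩
  · rw [← hsnσ r]
    exact (sn_strictMono b).monotone hρ.2
  · intro heq
    have hρσ : ρ = σ r := by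
      apply (sn_strictMono b).injective
      rw [heq, hsnσ]
    have hΦr0 : Φ r = 0 := by
      simp only [hΦ]
      rw [← hρσ, hρeq]
      simp [hF]
    have hΦzero : ∀ x ∈ Icc 0 r, Φ x = 0 := by
      intro x hx
      have h2 := hΦmono (left_mem_Icc.2 hr') hx hx.1
      have h3 := hΦmono hx (right_mem_Icc.2 hr') hx.2
      rw [hΦ0] at h2
      rw [hΦr0] at h3
      exact le_antisymm h3 h2
    -- derivative of Φ vanishes in the interior
    have hσ'1 : ∀ x ∈ Ioo 0 r, (Real.sqrt (1 + b ^ 2 * f x ^ 2))⁻¹ * f' x = 1 := by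
      intro x hx
      have hx' := Ioo_subset_Icc_self hx
      have hev : Φ =ᶠ[nhds x] fun _ => (0 : ℝ) := by
        filter_upwards [isOpen_Ioo.mem_nhds hx] with y hy
        exact hΦzero y (Ioo_subset_Icc_self hy)
      have hd0 : HasDerivAt Φ 0 x := (hasDerivAt_const x (0 : ℝ)).congr_of_eventuallyEq hev
      have huniq := (hΦd x hx).unique hd0
      have hfx : f x ^ m ≠ 0 := pow_ne_zero m (hfpos x ⟨hx.1, hx.2.le⟩).ne'
      have := (mul_eq_zero.1 huniq).resolve_left hfx
      linarith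
    -- hence σ x = x
    set τ : ℝ → ℝ := fun x => σ x - x with hτ
    have hτd : ∀ x ∈ Icc 0 r,
        HasDerivAt τ ((Real.sqrt (1 + b ^ 2 * f x ^ 2))⁻¹ * f' x - 1) x := by
      intro x hx
      exact (hσd x hx).sub (hasDerivAt_id' x)
    have hτcont : ContinuousOn τ (Icc 0 r) :=
      fun x hx => (hτd x hx).continuousAt.continuousWithinAt
    have hτmono : MonotoneOn τ (Icc 0 r) := by
      apply monotoneOn_of_deriv_nonneg (convex_Icc 0 r) hτcont
      · intro x hx; rw [interior_Icc] at hx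
        exact (hτd x (Ioo_subset_Icc_self hx)).differentiableAt.differentiableWithinAt
      · intro x hx; rw [interior_Icc] at hx
        rw [(hτd x (Ioo_subset_Icc_self hx)).deriv, hσ'1 x hx]
        simp
    have hτanti : AntitoneOn τ (Icc 0 r) := by
      apply antitoneOn_of_deriv_nonpos (convex_Icc 0 r) hτcont
      · intro x hx; rw [interior_Icc] at hx
        exact (hτd x (Ioo_subset_Icc_self hx)).differentiableAt.differentiableWithinAt
      · intro x hx; rw [interior_Icc] at hx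
        rw [(hτd x (Ioo_subset_Icc_self hx)).deriv, hσ'1 x hx]
        simp
    have hτ0 : τ 0 = 0 := by simp [hτ, hσ0]
    intro x hx
    have h2 := hτmono (left_mem_Icc.2 hr') hx hx.1
    have h3 := hτanti (left_mem_Icc.2 hr') hx hx.1
    rw [hτ0] at h2 h3
    have h4 : σ x = x := by
      have : τ x = 0 := le_antisymm h3 h2
      simp only [hτ] at this
      linarith
    rw [← hsnσ x, h4]

end iso

end Vale.Agent.H59
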