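import Vale.Agent.H59.CHBasic

namespace Vale.Agent.H59

open Set

section comparison

variable {b r : ℝ} {f f' f'' : ℝ → ℝ}

/-- Sturm comparison: `f ≥ sn_b` on `[0,r]`. -/
theorem f_ge_sn (hr : 0 ≤ r)
    (hf : ∀ x ∈ Icc 0 r, HasDerivAt f (f' x) x)
    (hf' : ∀ x ∈ Icc 0 r, HasDerivAt f' (f'' x) x)
    (h0 : f 0 = 0) (h1 : f' 0 = 1)
    (hcurv : ∀ x ∈ Icc 0 r, b ^ 2 * f x ≤ f'' x) :
    ∀ x ∈ Icc 0 r, sn b x ≤ f x := by
  set W : ℝ → ℝ := fun x => (f' x - cs b x) * cs b x - (f x - sn b x) * (b ^ 2 * sn b x) with hW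
  have hWd : ∀ x ∈ Icc 0 r, HasDerivAt W ((f'' x - b ^ 2 * f x) * cs b x) x := by
    intro x hx
    have d1 := ((hf' x hx).sub (hasDerivAt_cs b x)).mul (hasDerivAt_cs b x)
    have d2 := ((hf x hx).sub (hasDerivAt_sn b x)).mul ((hasDerivAt_sn b x).const_mul (b ^ 2))
    have d3 := d1.sub d2
    refine d3.congr_deriv ?_
    simp only [Pi.sub_apply]
    ring
  have hWmono : MonotoneOn W (Icc 0 r) := by
    apply monotoneOn_of_deriv_nonneg (convex_Icc 0 r)
    · intro x hx; exact (hWd x hx).continuousAt.continuousWithinAt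
    · intro x hx; rw [interior_Icc] at hx
      exact (hWd x (Ioo_subset_Icc_self hx)).differentiableAt.differentiableWithinAt
    · intro x hx; rw [interior_Icc] at hx
      have hx' := Ioo_subset_Icc_self hx
      rw [(hWd x hx').deriv]
      exact mul_nonneg (sub_nonneg.2 (hcurv x hx')) (cs_pos b x).le
  have hW0 : W 0 = 0 := by simp [hW, h0, h1, sn_zero, cs_zero]
  have hWnn : ∀ x ∈ Icc 0 r, 0 ≤ W x := by
    intro x hx
    have := hWmono (left_mem_Icc.2 hr) hx hx.1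
    rwa [hW0] at this
  set Q : ℝ → ℝ := fun x => (f x - sn b x) / cs b x with hQ
  have hQd : ∀ x ∈ Icc 0 r, HasDerivAt Q (W x / cs b x ^ 2) x := by
    intro x hx
    have d := ((hf x hx).sub (hasDerivAt_sn b x)).div (hasDerivAt_cs b x) (cs_pos b x).ne'
    exact d
  have hQmono : MonotoneOn Q (Icc 0 r) := by
    apply monotoneOn_of_deriv_nonneg (convex_Icc 0 r)
    · intro x hx; exact (hQd x hx).continuousAt.continuousWithinAt
    · intro x hx; rw [interior_Icc] at hx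
      exact (hQd x (Ioo_subset_Icc_self hx)).differentiableAt.differentiableWithinAt
    · intro x hx; rw [interior_Icc] at hx
      have hx' := Ioo_subset_Icc_self hx
      rw [(hQd x hx').deriv]
      exact div_nonneg (hWnn x hx') (sq_nonneg _)
  have hQ0 : Q 0 = 0 := by simp [hQ, h0, sn_zero]
  intro x hx
  have h2 := hQmono (left_mem_Icc.2 hr) hx hx.1
  rw [hQ0] at h2
  have h3 : 0 ≤ f x - sn b x := by
    have h4 := mul_nonneg h2 (cs_pos b x).le
    simp only [hQ] at h4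
    rwa [div_mul_cancel₀ _ (cs_pos b x).ne'] at h4
  linarith

/-- `f' ≥ 1` on `[0,r]`. -/
theorem f'_ge_one (hr : 0 ≤ r)
    (hf : ∀ x ∈ Icc 0 r, HasDerivAt f (f' x) x)
    (hf' : ∀ x ∈ Icc 0 r, HasDerivAt f' (f'' x) x)
    (h0 : f 0 = 0) (h1 : f' 0 = 1)
    (hcurv : ∀ x ∈ Icc 0 r, b ^ 2 * f x ≤ f'' x) :
    ∀ x ∈ Icc 0 r, 1 ≤ f' x := by
  have hge := f_ge_sn hr hf hf' h0 h1 hcurv
  have hmono : MonotoneOn f' (Icc 0 r) := by
    apply monotoneOn_of_deriv_nonneg (convex_Icc 0 r)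
    · intro x hx; exact (hf' x hx).continuousAt.continuousWithinAt
    · intro x hx; rw [interior_Icc] at hx
      exact (hf' x (Ioo_subset_Icc_self hx)).differentiableAt.differentiableWithinAt
    · intro x hx; rw [interior_Icc] at hx
      have hx' := Ioo_subset_Icc_self hx
      rw [(hf' x hx').deriv]
      have h2 : 0 ≤ f x := le_trans (sn_nonneg hx'.1) (hge x hx')
      exact le_trans (mul_nonneg (sq_nonneg b) h2) (hcurv x hx')
  intro x hx
  have := hmono (left_mem_Icc.2 hr) hx hx.1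
  rwa [h1] at this

/-- The tangential curvature bound: `f'^2 ≥ 1 + b^2 f^2` on `[0,r]`. -/
theorem f'_sq_ge (hr : 0 ≤ r)
    (hf : ∀ x ∈ Icc 0 r, HasDerivAt f (f' x) x)
    (hf' : ∀ x ∈ Icc 0 r, HasDerivAt f' (f'' x) x)
    (h0 : f 0 = 0) (h1 : f' 0 = 1)
    (hcurv : ∀ x ∈ Icc 0 r, b ^ 2 * f x ≤ f'' x) :
    ∀ x ∈ Icc 0 r, 1 + b ^ 2 * f x ^ 2 ≤ f' x ^ 2 := by
  have hge1 := f'_ge_one hr hf hf' h0 h1 hcurv
  set h : ℝ → ℝ := fun x => f' x ^ 2 - b ^ 2 * f x ^ 2 - 1 with hh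
  have hd : ∀ x ∈ Icc 0 r, HasDerivAt h (2 * f' x * (f'' x - b ^ 2 * f x)) x := by
    intro x hx
    have d1 := ((hf' x hx).pow 2).sub (((hf x hx).pow 2).const_mul (b ^ 2))
    have d2 := d1.sub_const 1
    refine d2.congr_deriv ?_
    simp only [Nat.cast_ofNat]
    ring
  have hmono : MonotoneOn h (Icc 0 r) := by
    apply monotoneOn_of_deriv_nonneg (convex_Icc 0 r)
    · intro x hx; exact (hd x hx).continuousAt.continuousWithinAt
    · intro x hx; rw [interior_Icc] at hx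
      exact (hd x (Ioo_subset_Icc_self hx)).differentiableAt.differentiableWithinAt
    · intro x hx; rw [interior_Icc] at hx
      have hx' := Ioo_subset_Icc_self hx
      rw [(hd x hx').deriv]
      have h2 : 0 ≤ f' x := le_trans zero_le_one (hge1 x hx')
      exact mul_nonneg (mul_nonneg zero_le_two h2) (sub_nonneg.2 (hcurv x hx'))
  have hh0 : h 0 = 0 := by simp [hh, h0, h1]
  intro x hx
  have h3 := hmono (left_mem_Icc.2 hr) hx hx.1
  rw [hh0] at h3
  simp only [hh] at h3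
  linarith

end comparison

end Vale.Agent.H59
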